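import Vale.Agent.P240.R2.H923.CDefs
import Vale.Agent.P240.R2.H775.AutStmts

/-!
P240 (helper257), NL3: the hypothesis `CoreHyp` of helper923's core theorem. An automorphism of
`PSU_n(q)` that fixes enough diagonal classes preserves all the groups `C_ij`.
-/

set_option autoImplicit false
set_option linter.all false

namespace Vale.Agent.P240.R2.H257

open Matrix Subgroup
open Vale.Agent.P240.R2.AS (GU SU PGU PSU SA mapGU SA_star)
open Vale.Agent.P240.R2.H923 (IsB IsC CoreHyp dgc)

section general

variable {K : Type*} [Field K] [StarRing K] {n : ℕ}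

theorem diag_mem {c : Fin n → K} (h : ∀ i, c i * star (c i) = 1) :
    Matrix.diagonal c ∈ Matrix.unitaryGroup (Fin n) K := by
  rw [Matrix.mem_unitaryGroup_iff, star_eq_conjTranspose, diagonal_conjTranspose,
    diagonal_mul_diagonal, ← diagonal_one]
  congr 1
  funext i
  exact h i

theorem dgc_eq {c : Fin n → K} (h : Matrix.diagonal c ∈ Matrix.unitaryGroup (Fin n) K) :
    (dgc c : PGU K n) = QuotientGroup.mk ⟨_, h⟩ := by
  unfold dgc
  rw [dif_pos h]

/-- a class of determinant one -/
theorem dgc_mem {c : Fin n → K} (h : ∀ i, c i * star (c i) = 1) (hd : ∏ i, c i = 1) :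
    (dgc c : PGU K n) ∈ PSU K n := by
  rw [dgc_eq (diag_mem h)]
  refine ⟨⟨_, diag_mem h⟩, ?_, rfl⟩
  change (Matrix.diagonal c).det = 1
  rw [det_diagonal]
  exact hd

/-- if a column is diagonal then the row is diagonal -/
theorem row_of_col (g : GU K n) (k : Fin n) (h : ∀ l, l ≠ k → g.1 l k = 0) (l : Fin n)
    (hl : l ≠ k) : g.1 k l = 0 := by
  have h1 : star g.1 * g.1 = 1 := Matrix.mem_unitaryGroup_iff'.1 g.2
  have h2 : ∀ m, star (g.1 k k) * g.1 k m = (1 : Matrix (Fin n) (Fin n) K) k m := by
    intro m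
    rw [← h1, Matrix.mul_apply, Finset.sum_eq_single k]
    · rw [Matrix.star_apply]
    · intro b _ hb
      rw [Matrix.star_apply, h b hb, star_zero, zero_mul]
    · intro hk
      exact absurd (Finset.mem_univ _) hk
  have h3 := h2 k
  rw [Matrix.one_apply_eq] at h3
  have h4 : star (g.1 k k) ≠ 0 := left_ne_zero_of_mul_eq_one h3
  have h5 := h2 l
  rw [Matrix.one_apply_ne hl.symm] at h5
  exact (mul_eq_zero.1 h5).resolve_left h4

/-- central elements are scalar -/
theorem cen_scalar {ζ : K} (hζ : ζ * star ζ = 1) (h1 : ζ ≠ 1) {w : GU K n}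
    (hw : w ∈ center (GU K n)) : ∃ z : K, w.1 = z • (1 : Matrix (Fin n) (Fin n) K) := by
  rw [mem_center_iff] at hw
  -- off-diagonal entries vanish
  have hoff : ∀ l k, l ≠ k → w.1 l k = 0 := by
    intro l k hlk
    have hmem : Matrix.diagonal (Function.update (1 : Fin n → K) k ζ) ∈
        Matrix.unitaryGroup (Fin n) K := by
      refine diag_mem fun i => ?_
      by_cases hi : i = k
      · subst hi; rw [Function.update_self]; exact hζ
      · rw [Function.update_of_ne hi, Pi.one_apply, star_one, mul_one]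
    have h2 := congrArg (fun g : GU K n => g.1 l k) (hw ⟨_, hmem⟩)
    have h3 : (Matrix.diagonal (Function.update (1 : Fin n → K) k ζ) * w.1) l k =
        (w.1 * Matrix.diagonal (Function.update (1 : Fin n → K) k ζ)) l k := h2
    rw [Matrix.diagonal_mul, Matrix.mul_diagonal, Function.update_self,
      Function.update_of_ne hlk, Pi.one_apply, one_mul] at h3
    have h4 : w.1 l k * (ζ - 1) = 0 := by rw [mul_sub, mul_one, ← h3, sub_self]
    exact (mul_eq_zero.1 h4).resolve_right (sub_ne_zero.2 h1)
  have hdiag : ∀ l k, w.1 l l = w.1 k k := by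
    intro l k
    let e : Equiv.Perm (Fin n) := Equiv.swap l k
    let M : Matrix (Fin n) (Fin n) K := Matrix.of fun a b => if e a = b then 1 else 0
    have hM : M ∈ Matrix.unitaryGroup (Fin n) K := by
      rw [Matrix.mem_unitaryGroup_iff]
      ext a b
      rw [Matrix.mul_apply]
      simp only [M, Matrix.star_apply, Matrix.of_apply]
      rw [Finset.sum_eq_single (e a)]
      · rw [if_pos rfl, one_mul, Matrix.one_apply]
        by_cases hab : a = b
        · subst hab
          rw [if_pos rfl, if_pos rfl, star_one]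
        · rw [if_neg hab, if_neg (fun h => hab (e.injective h).symm), star_zero]
      · intro c _ hc
        rw [if_neg (fun h => hc h.symm), zero_mul]
      · intro h
        exact absurd (Finset.mem_univ _) h
    have h2 := congrArg (fun g : GU K n => g.1 l k) (hw ⟨_, hM⟩)
    have h3 : (M * w.1) l k = (w.1 * M) l k := h2
    have hel : e l = k := Equiv.swap_apply_left l k
    have h4 : (M * w.1) l k = w.1 k k := by
      rw [Matrix.mul_apply, Finset.sum_eq_single k]
      · simp only [M, Matrix.of_apply]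
        rw [if_pos hel, one_mul]
      · intro c _ hc
        simp only [M, Matrix.of_apply]
        rw [hel, if_neg (fun h => hc h.symm), zero_mul]
      · intro h
        exact absurd (Finset.mem_univ _) h
    have h5 : (w.1 * M) l k = w.1 l l := by
      rw [Matrix.mul_apply, Finset.sum_eq_single l]
      · simp only [M, Matrix.of_apply]
        rw [if_pos hel, mul_one]
      · intro c _ hc
        rw [hoff l c hc.symm, zero_mul]
      · intro h
        exact absurd (Finset.mem_univ _) h
    rw [← h4, ← h5, h3]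
  rcases isEmpty_or_nonempty (Fin n) with hE | ⟨⟨i₀⟩⟩
  · exact ⟨1, Matrix.ext fun i => hE.elim i⟩
  · refine ⟨w.1 i₀ i₀, ?_⟩
    ext a b
    rw [Matrix.smul_apply, Matrix.one_apply, smul_eq_mul]
    by_cases hab : a = b
    · subst hab
      rw [if_pos rfl, mul_one, hdiag a i₀]
    · rw [if_neg hab, mul_zero, hoff a b hab]

/-- a nonsingular matrix has a permutation in its support -/
theorem exists_perm_ne (g : GU K n) : ∃ σ : Equiv.Perm (Fin n), ∀ k, g.1 (σ k) k ≠ 0 := by
  by_contra hcon
  push Not at hcon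
  have h1 : g.1.det = 0 := by
    rw [Matrix.det_apply]
    refine Finset.sum_eq_zero fun σ _ => ?_
    obtain ⟨k, hk⟩ := hcon σ
    have h0 : ∏ i, (g.1 : Matrix (Fin n) (Fin n) K) (σ i) i = 0 :=
      Finset.prod_eq_zero (Finset.mem_univ k) hk
    exact (congrArg (fun x => Equiv.Perm.sign σ • x) h0).trans (smul_zero _)
  have h2 : g.1 * star g.1 = 1 := Matrix.mem_unitaryGroup_iff.1 g.2
  have h3 := congrArg Matrix.det h2
  rw [det_mul, h1, zero_mul, det_one] at h3
  exact zero_ne_one h3

/-- no permutation of the values is a nontrivial multiple -/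
def Rigid (c : Fin n → K) : Prop :=
  ∀ (σ : Equiv.Perm (Fin n)) (z : K), (∀ k, c k = z * c (σ k)) → z = 1

theorem rigid2 {c : Fin n → K} {i j : Fin n} {v : K} (hij : i ≠ j) (hi : c i = v) (hj : c j = v)
    (hv : v ≠ 0) (h : ∀ a b, a ≠ b → c a = c b → c a = v) : Rigid c := by
  intro σ z hz
  have h1 := hz i
  have h2 := hz j
  rw [hi] at h1
  rw [hj] at h2
  have hz0 : z ≠ 0 := by
    rintro rfl
    rw [zero_mul] at h1
    exact hv h1
  have h3 : c (σ i) = c (σ j) := mul_left_cancel₀ hz0 (h1.symm.trans h2)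
  have h4 := h _ _ (fun e => hij (σ.injective e)) h3
  rw [h4] at h1
  exact (mul_right_cancel₀ hv ((one_mul v).trans h1)).symm

theorem rigid3 {c : Fin n → K} {i j m : Fin n} {v : K} (hij : i ≠ j) (him : i ≠ m) (hjm : j ≠ m)
    (hi : c i = v) (hj : c j = v) (hm : c m = v)
    (hv : v ≠ 0) (h : ∀ a b d, a ≠ b → a ≠ d → b ≠ d → c a = c b → c a = c d → c a = v) :
    Rigid c := by
  intro σ z hz
  have h1 := hz i
  have h2 := hz j
  have h2' := hz m
  rw [hi] at h1
  rw [hj] at h2
  rw [hm] at h2'
  have hz0 : z ≠ 0 := by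
    rintro rfl
    rw [zero_mul] at h1
    exact hv h1
  have h3 : c (σ i) = c (σ j) := mul_left_cancel₀ hz0 (h1.symm.trans h2)
  have h3' : c (σ i) = c (σ m) := mul_left_cancel₀ hz0 (h1.symm.trans h2')
  have h4 := h _ _ _ (fun e => hij (σ.injective e)) (fun e => him (σ.injective e))
    (fun e => hjm (σ.injective e)) h3 h3'
  rw [h4] at h1
  exact (mul_right_cancel₀ hv ((one_mul v).trans h1)).symm

/-- elements of `C_ij` commute with the diagonal classes -/
theorem comm_of_isC {i j : Fin n} {y : PGU K n} (hy : IsC i j y) {c : Fin n → K}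
    (hc : ∀ m, c m * star (c m) = 1) (hij : c i = c j) : y * dgc c = dgc c * y := by
  obtain ⟨g, hg, rfl⟩ := hy
  rw [dgc_eq (diag_mem hc), ← QuotientGroup.mk_mul, ← QuotientGroup.mk_mul]
  congr 1
  apply Subtype.ext
  change g.1 * Matrix.diagonal c = Matrix.diagonal c * g.1
  ext l k
  rw [Matrix.mul_diagonal, Matrix.diagonal_mul, mul_comm]
  by_cases hlk : l = k
  · rw [hlk]
  by_cases hk : k ≠ i ∧ k ≠ j
  · rw [hg k hk.1 hk.2 l hlk, mul_zero, mul_zero]
  by_cases hl : l ≠ i ∧ l ≠ j
  · rw [row_of_col g l (hg l hl.1 hl.2) k (fun h => hlk h.symm), mul_zero, mul_zero]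
  have h1 : k = i ∨ k = j := by
    by_contra h
    exact hk (not_or.1 h)
  have h2 : l = i ∨ l = j := by
    by_contra h
    exact hl (not_or.1 h)
  have h3 : c k = c l := by
    rcases h1 with rfl | rfl <;> rcases h2 with rfl | rfl
    · rfl
    · exact hij
    · exact hij.symm
    · rfl
  rw [h3]

/-- an element that commutes with a rigid diagonal class preserves the eigenspaces -/
theorem zero_of_comm {ζ : K} (hζ : ζ * star ζ = 1) (h1 : ζ ≠ 1) {g : GU K n} {c : Fin n → K}
    (hc : ∀ m, c m * star (c m) = 1) (hr : Rigid c)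
    (h : (QuotientGroup.mk g : PGU K n) * dgc c = dgc c * QuotientGroup.mk g) {l k : Fin n}
    (hlk : c l ≠ c k) : g.1 l k = 0 := by
  rw [dgc_eq (diag_mem hc), ← QuotientGroup.mk_mul, ← QuotientGroup.mk_mul] at h
  have h2 := QuotientGroup.eq.1 h.symm
  obtain ⟨z, hz⟩ := cen_scalar hζ h1 h2
  have h3 : g.1 * Matrix.diagonal c = z • (Matrix.diagonal c * g.1) := by
    have h4 : g * ⟨_, diag_mem hc⟩ = (⟨_, diag_mem hc⟩ * g) *
      ((⟨_, diag_mem hc⟩ * g)⁻¹ * (g * ⟨_, diag_mem hc⟩) : GU K n) := by
      rw [mul_inv_cancel_left]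
    have h5 := congrArg (fun x : GU K n => x.1) h4
    change g.1 * Matrix.diagonal c = (Matrix.diagonal c * g.1) * _ at h5
    rw [hz, Matrix.mul_smul, Matrix.mul_one] at h5
    exact h5
  have h4 : ∀ a b, g.1 a b * c b = z * (c a * g.1 a b) := by
    intro a b
    have := congrFun (congrFun h3 a) b
    rwa [Matrix.mul_diagonal, Matrix.smul_apply, Matrix.diagonal_mul, smul_eq_mul] at this
  have hz1 : z = 1 := by
    obtain ⟨σ, hσ⟩ := exists_perm_ne g
    refine hr σ z fun m => ?_
    have := h4 (σ m) m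
    have h6 : g.1 (σ m) m * c m = g.1 (σ m) m * (z * c (σ m)) := by
      rw [this]; ring
    exact mul_left_cancel₀ (hσ m) h6
  have h5 := h4 l k
  rw [hz1, one_mul, mul_comm] at h5
  have h6 : (c k - c l) * g.1 l k = 0 := by rw [sub_mul, h5, sub_self]
  exact (mul_eq_zero.1 h6).resolve_left (sub_ne_zero.2 hlk.symm)

/-- **general criterion** for `CoreHyp` -/
theorem coreHyp_of {ζ : K} (hζ : ζ * star ζ = 1) (h1 : ζ ≠ 1) (α : MulAut ↥(PSU K n))
    (H : ∀ i j : Fin n, i ≠ j → ∀ k, k ≠ i → k ≠ j → ∀ l, l ≠ k → ∃ c : Fin n → K,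
      c i = c j ∧ (∀ m, c m * star (c m) = 1) ∧ Rigid c ∧ c l ≠ c k ∧
      ∃ x : ↥(PSU K n), x.1 = dgc c ∧ α x = x) : CoreHyp α := by
  intro i j hij
  have key : ∀ y : ↥(PSU K n), IsC i j y.1 ↔ ∀ (c : Fin n → K) (x : ↥(PSU K n)), c i = c j →
      (∀ m, c m * star (c m) = 1) → x.1 = dgc c → α x = x → y * x = x * y := by
    intro y
    constructor
    · intro hy c x hcij hc hx _
      apply Subtype.ext
      rw [Subgroup.coe_mul, Subgroup.coe_mul, hx]
      exact comm_of_isC hy hc hcij
    · intro h
      obtain ⟨g, hg⟩ := QuotientGroup.mk_surjective y.1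
      refine ⟨g, ?_, hg.symm⟩
      intro k hki hkj l hlk
      obtain ⟨c, hcij, hc, hr, hne, x, hx, hax⟩ := H i j hij k hki hkj l hlk
      have h2 := congrArg Subtype.val (h c x hcij hc hx hax)
      rw [Subgroup.coe_mul, Subgroup.coe_mul, hx, ← hg] at h2
      exact zero_of_comm hζ h1 hc hr h2 hne
  intro y
  rw [key, key]
  constructor
  · intro h c x hcij hc hx hax
    have h2 := congrArg α (h c x hcij hc hx hax)
    rwa [map_mul, map_mul, hax] at h2
  · intro h c x hcij hc hx hax
    have h2 := h c x hcij hc hx hax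
    apply α.injective
    rw [map_mul, map_mul, hax]
    exact h2

/-- **case (i)**: the classes of `diag(1,...,ζ,...,1)` are fixed -/
theorem coreHyp_one (hn : 3 ≤ n) {ζ : K} (hζ : ζ * star ζ = 1) (h1 : ζ ≠ 1)
    (α : MulAut ↥(PSU K n))
    (H : ∀ k : Fin n, ∃ x : ↥(PSU K n), x.1 = dgc (Function.update 1 k ζ) ∧ α x = x) :
    CoreHyp α := by
  refine coreHyp_of hζ h1 α ?_
  intro i j hij k hki hkj l hlk
  have hne : ∀ m, m ≠ k → Function.update (1 : Fin n → K) k ζ m = 1 := fun m hm => by
    rw [Function.update_of_ne hm, Pi.one_apply]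
  refine ⟨Function.update 1 k ζ, ?_, ?_, ?_, ?_, H k⟩
  · rw [hne i hki.symm, hne j hkj.symm]
  · intro m
    by_cases hm : m = k
    · subst hm; rw [Function.update_self]; exact hζ
    · rw [hne m hm, star_one, mul_one]
  · refine rigid2 hij (hne i hki.symm) (hne j hkj.symm) one_ne_zero ?_
    intro a b hab h
    by_cases ha : a = k
    · rw [h]
      exact hne b (fun hb => hab (ha.trans hb.symm))
    · exact hne a ha
  · rw [hne l hlk, Function.update_self]
    exact h1.symm

end general

section finite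

variable {K : Type*} [Field K] [StarRing K] {n : ℕ}

/-- an element of order `p` and norm one -/
theorem exists_zeta {q p : ℕ} (hp : p.Prime) (hpq : p ∣ q + 1) (hq : 1 < q)
    (hK : Nat.card K = q ^ 2) : ∃ ζ : K, ζ ^ p = 1 ∧ ζ ≠ 1 ∧ ∀ m, ζ ^ m = 1 → p ∣ m := by
  have hfin : Finite K := by
    apply Nat.finite_of_card_ne_zero
    rw [hK]
    positivity
  have : Fact p.Prime := ⟨hp⟩
  have hcard : Nat.card Kˣ = q ^ 2 - 1 := by
    rw [Nat.card_units, hK]
  have hdvd : p ∣ Nat.card Kˣ := by
    rw [hcard]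
    have h1 : q ^ 2 - 1 = (q + 1) * (q - 1) := by
      have := Nat.sq_sub_sq q 1
      rw [one_pow] at this
      exact this
    rw [h1]
    exact Dvd.dvd.mul_right hpq _
  obtain ⟨u, hu⟩ := exists_prime_orderOf_dvd_card' p hdvd
  refine ⟨(u : K), ?_, ?_, ?_⟩
  · rw [← Units.val_pow_eq_pow_val, ← hu, pow_orderOf_eq_one, Units.val_one]
  · intro h
    have h2 : u = 1 := Units.ext (by rw [h, Units.val_one])
    rw [h2, orderOf_one] at hu
    exact hp.one_lt.ne hu
  · intro m hm
    rw [← hu, orderOf_dvd_iff_pow_eq_one]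
    apply Units.ext
    rw [Units.val_pow_eq_pow_val, hm, Units.val_one]

/-- **case (ii)**: the diagonal classes of exponent `p` are fixed -/
theorem coreHyp_exp {q p : ℕ} (hp : p.Prime) (hpq : p ∣ q + 1) (hq : 1 < q)
    (hK : Nat.card K = q ^ 2) (hs : ∀ x : K, star x = x ^ q) (hn : 3 ≤ n) (hp2 : p = 2 → n ≠ 4)
    (hp3 : p = 3 → n ≠ 3) (α : MulAut ↥(PSU K n))
    (H : ∀ x : ↥(PSU K n), (∃ c : Fin n → K, (∀ i, c i ^ p = 1) ∧ x.1 = dgc c) → α x = x) :
    CoreHyp α := by
  obtain ⟨ζ, hζp, hζ1, hζd⟩ := exists_zeta hp hpq hq hK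
  have hζ0 : ζ ≠ 0 := by
    rintro rfl
    rw [zero_pow hp.ne_zero] at hζp
    exact zero_ne_one hζp
  have hnorm : ∀ x : K, x ^ p = 1 → x * star x = 1 := by
    intro x hx
    rw [hs, ← pow_succ']
    obtain ⟨t, ht⟩ := hpq
    rw [ht, pow_mul, hx, one_pow]
  have hx : ∀ c : Fin n → K, (∀ i, c i ^ p = 1) → ∏ i, c i = 1 →
      ∃ x : ↥(PSU K n), x.1 = dgc c ∧ α x = x := by
    intro c hc hd
    refine ⟨⟨dgc c, dgc_mem (fun i => hnorm _ (hc i)) hd⟩, rfl, H _ ⟨c, hc, rfl⟩⟩
  refine coreHyp_of (hnorm ζ hζp) hζ1 α ?_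
  intro i j hij k hki hkj l hlk
  rcases Nat.lt_or_ge 3 n with hn4 | hn3
  · -- `n ≥ 4`
    -- the element
    have main : ∀ l' : Fin n, l' ≠ i → l' ≠ j → l' ≠ k → (p = 2 → l ≠ l') →
        ∃ c : Fin n → K, c i = c j ∧ (∀ m, c m * star (c m) = 1) ∧ Rigid c ∧ c l ≠ c k ∧
        ∃ x : ↥(PSU K n), x.1 = dgc c ∧ α x = x := by
      intro l' h1 h2 h3 h4
      obtain ⟨c, hcdef⟩ : ∃ c : Fin n → K, c = fun m => (if k = m then ζ else 1) *
        (if l' = m then ζ⁻¹ else 1) := ⟨_, rfl⟩
      have hck : c k = ζ := by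
        rw [hcdef]; simp only; rw [if_pos trivial, if_neg h3, mul_one]
      have hcl : c l' = ζ⁻¹ := by
        rw [hcdef]; simp only; rw [if_neg h3.symm, if_pos trivial, one_mul]
      have hco : ∀ m, m ≠ k → m ≠ l' → c m = 1 := by
        intro m hm1 hm2
        rw [hcdef]; simp only; rw [if_neg hm1.symm, if_neg hm2.symm, mul_one]
      have hcp : ∀ m, c m ^ p = 1 := by
        intro m
        by_cases hm1 : m = k
        · rw [hm1, hck, hζp]
        by_cases hm2 : m = l'
        · rw [hm2, hcl, inv_pow, hζp, inv_one]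
        rw [hco m hm1 hm2, one_pow]
      have hprod : ∏ m, c m = 1 := by
        rw [hcdef]
        simp only
        rw [Finset.prod_mul_distrib, Finset.prod_ite_eq, Finset.prod_ite_eq,
          if_pos (Finset.mem_univ _), if_pos (Finset.mem_univ _), mul_inv_cancel₀ hζ0]
      have hinv1 : ζ⁻¹ ≠ 1 := fun h => hζ1 (inv_eq_one.1 h)
      have hinv : p ≠ 2 → ζ⁻¹ ≠ ζ := by
        intro hp' h
        have h5 : ζ ^ 2 = 1 := by
          rw [pow_two]
          nth_rewrite 1 [← h]
          exact inv_mul_cancel₀ hζ0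
        exact hp' ((Nat.prime_dvd_prime_iff_eq hp Nat.prime_two).1 (hζd 2 h5))
      have hci : c i = 1 := hco i hki.symm h1.symm
      have hcj : c j = 1 := hco j hkj.symm h2.symm
      refine ⟨c, by rw [hci, hcj], fun m => hnorm _ (hcp m), ?_, ?_, hx c hcp hprod⟩
      · by_cases hp' : p = 2
        · -- a third coordinate
          have hn5 : 4 < n := by
            have := hp2 hp'
            omega
          obtain ⟨m, hm⟩ : ∃ m : Fin n, m ∉ ({i, j, k, l'} : Finset (Fin n)) := by
            by_contra hcon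
            push Not at hcon
            have h5 : (Finset.univ : Finset (Fin n)) ⊆ {i, j, k, l'} := fun m _ => hcon m
            have h6 := Finset.card_le_card h5
            rw [Finset.card_univ, Fintype.card_fin] at h6
            have h7 : ({i, j, k, l'} : Finset (Fin n)).card ≤ 4 := Finset.card_le_four
            omega
          simp only [Finset.mem_insert, Finset.mem_singleton, not_or] at hm
          obtain ⟨hmi, hmj, hmk, hml⟩ := hm
          refine rigid3 hij (Ne.symm hmi) (Ne.symm hmj) hci hcj (hco m hmk hml) one_ne_zero ?_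
          intro a b d hab had hbd h5 h6
          by_cases ha : a = k ∨ a = l'
          · by_cases hb : b = k ∨ b = l'
            · have hd1 : d ≠ k := fun e =>
                hab ((ha.resolve_left fun e' => had (e'.trans e.symm)).trans
                  (hb.resolve_left fun e' => hbd (e'.trans e.symm)).symm)
              have hd2 : d ≠ l' := fun e =>
                hab ((ha.resolve_right fun e' => had (e'.trans e.symm)).trans
                  (hb.resolve_right fun e' => hbd (e'.trans e.symm)).symm)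
              rw [h6]
              exact hco d hd1 hd2
            · push Not at hb
              rw [h5]
              exact hco b hb.1 hb.2
          · push Not at ha
            exact hco a ha.1 ha.2
        · refine rigid2 hij hci hcj one_ne_zero ?_
          intro a b hab h5
          by_cases ha : a = k
          · by_cases hb : b = l'
            · exfalso
              rw [ha, hb, hck, hcl] at h5
              exact hinv hp' h5.symm
            · rw [h5]
              exact hco b (fun h => hab (ha.trans h.symm)) hb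
          · by_cases ha' : a = l'
            · by_cases hb : b = k
              · exfalso
                rw [ha', hb, hck, hcl] at h5
                exact hinv hp' h5
              · rw [h5]
                exact hco b hb (fun h => hab (ha'.trans h.symm))
            · exact hco a ha ha'
      · rw [hck]
        by_cases hl : l = l'
        · rw [hl, hcl]
          exact hinv (fun h => h4 h hl)
        · rw [hco l hlk hl]
          exact hζ1.symm
    by_cases hp' : p = 2
    · have hn5 : 4 < n := by
        have := hp2 hp'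
        omega
      obtain ⟨m, hm⟩ : ∃ m : Fin n, m ∉ ({i, j, k, l} : Finset (Fin n)) := by
        by_contra hcon
        push Not at hcon
        have h5 : (Finset.univ : Finset (Fin n)) ⊆ {i, j, k, l} := fun m _ => hcon m
        have h6 := Finset.card_le_card h5
        rw [Finset.card_univ, Fintype.card_fin] at h6
        have h7 : ({i, j, k, l} : Finset (Fin n)).card ≤ 4 := Finset.card_le_four
        omega
      simp only [Finset.mem_insert, Finset.mem_singleton, not_or] at hm
      obtain ⟨hmi, hmj, hmk, hml⟩ := hm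
      exact main m hmi hmj hmk (fun _ h => hml h.symm)
    · obtain ⟨m, hm⟩ : ∃ m : Fin n, m ∉ ({i, j, k} : Finset (Fin n)) := by
        by_contra hcon
        push Not at hcon
        have h5 : (Finset.univ : Finset (Fin n)) ⊆ {i, j, k} := fun m _ => hcon m
        have h6 := Finset.card_le_card h5
        rw [Finset.card_univ, Fintype.card_fin] at h6
        have h7 : ({i, j, k} : Finset (Fin n)).card ≤ 3 := Finset.card_le_three
        omega
      simp only [Finset.mem_insert, Finset.mem_singleton, not_or] at hm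
      obtain ⟨hmi, hmj, hmk⟩ := hm
      exact main m hmi hmj hmk (fun h => absurd h hp')
  · -- `n = 3`
    have hn3' : n = 3 := by omega
    have hp3' : p ≠ 3 := fun h => hp3 h hn3'
    have hζ3 : ζ ^ 3 ≠ 1 := fun h =>
      hp3' ((Nat.prime_dvd_prime_iff_eq hp Nat.prime_three).1 (hζd 3 h))
    obtain ⟨c, hcdef⟩ : ∃ c : Fin n → K, c = fun m => ζ * (if k = m then (ζ ^ 3)⁻¹ else 1) :=
      ⟨_, rfl⟩
    have hck : c k = ζ * (ζ ^ 3)⁻¹ := by
      rw [hcdef]; simp only; rw [if_pos trivial]
    have hco : ∀ m, m ≠ k → c m = ζ := by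
      intro m hm
      rw [hcdef]; simp only; rw [if_neg hm.symm, mul_one]
    have hcp : ∀ m, c m ^ p = 1 := by
      intro m
      by_cases hm : m = k
      · rw [hm, hck, mul_pow, inv_pow, ← pow_mul, mul_comm 3 p, pow_mul, hζp, one_pow, inv_one,
          mul_one]
      · rw [hco m hm, hζp]
    have hprod : ∏ m, c m = 1 := by
      rw [hcdef]
      simp only
      rw [Finset.prod_mul_distrib, Finset.prod_ite_eq, if_pos (Finset.mem_univ _),
        Finset.prod_const, Finset.card_univ, Fintype.card_fin, hn3',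
        mul_inv_cancel₀ (pow_ne_zero 3 hζ0)]
    refine ⟨c, by rw [hco i hki.symm, hco j hkj.symm], fun m => hnorm _ (hcp m), ?_, ?_,
      hx c hcp hprod⟩
    · refine rigid2 hij (hco i hki.symm) (hco j hkj.symm) hζ0 ?_
      intro a b hab h
      by_cases ha : a = k
      · rw [h]
        exact hco b (fun hb => hab (ha.trans hb.symm))
      · exact hco a ha
    · rw [hco l hlk, hck]
      intro h
      apply hζ3
      have h2 : ζ * 1 = ζ * (ζ ^ 3)⁻¹ := by rw [mul_one]; exact h
      have h3 := mul_left_cancel₀ hζ0 h2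
      exact inv_eq_one.1 h3.symm

end finite

section fixD

universe u
variable {K : Type u} [Field K] [StarRing K] {n : ℕ}

/-- **case (ii)** with helper775's hypothesis `FixD` -/
theorem coreHyp_fixD {q p : ℕ} (hp : p.Prime) (hpq : p ∣ q + 1) (hq : 1 < q)
    (hK : Nat.card K = q ^ 2) (hs : ∀ x : K, star x = x ^ q) (hn : 3 ≤ n) (hp2 : p = 2 → n ≠ 4)
    (hp3 : p = 3 → n ≠ 3) (α : MulAut ↥(PSU K n)) (H : H775.Aut.FixD p n α) :
    CoreHyp α :=
  coreHyp_exp hp hpq hq hK hs hn hp2 hp3 α fun x hx => H x hx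

end fixD

end Vale.Agent.P240.R2.H257
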