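import Vale.Agent.P240.R2.H257.Cij
import Vale.Agent.P240.R2.H923.TRStmts

/-!
P240 (helper257): ROW F of helper923's plan: every `p`-subgroup of `PGU_n(q)`, `p` odd, `p ∣ q + 1`,
stabilises an unordered frame.
-/

set_option autoImplicit false
set_option linter.all false

namespace Vale.Agent.P240.R2.H257

open Matrix Subgroup
open Vale.Agent.P240.R2.AS (GU SU PGU PSU SA mapGU SA_star act)
open Vale.Agent.P240.R2.H923.TR (Fq Mon StmtF)

universe u

section
variable {K : Type u} [Field K] [StarRing K] {n : ℕ}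

theorem Mon.one : Mon (1 : GU K n) 1 := by
  intro i l hl
  exact Matrix.one_apply_ne hl

theorem Mon.mul {g h : GU K n} {π ρ : Equiv.Perm (Fin n)} (hg : Mon g π) (hh : Mon h ρ) :
    Mon (g * h) (π * ρ) := by
  intro i l hl
  change (g.1 * h.1) l i = 0
  rw [Matrix.mul_apply]
  refine Finset.sum_eq_zero fun m _ => ?_
  by_cases hm : m = ρ i
  · subst hm
    rw [hg (ρ i) l hl, zero_mul]
  · rw [hh i m hm, mul_zero]

theorem Mon.inv {g : GU K n} {π : Equiv.Perm (Fin n)} (hg : Mon g π) : Mon g⁻¹ π⁻¹ := by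
  intro i l hl
  change (star g.1) l i = 0
  rw [Matrix.star_apply, hg l i, star_zero]
  intro h
  apply hl
  rw [h]
  exact (π.symm_apply_apply l).symm

/-- the monomial group -/
def MonG (K : Type u) [Field K] [StarRing K] (n : ℕ) : Subgroup (GU K n) where
  carrier := {g | ∃ π, Mon g π}
  one_mem' := ⟨1, Mon.one⟩
  mul_mem' := by
    rintro a b ⟨π, ha⟩ ⟨ρ, hb⟩
    exact ⟨π * ρ, Mon.mul ha hb⟩
  inv_mem' := by
    rintro a ⟨π, ha⟩
    exact ⟨π⁻¹, Mon.inv ha⟩

/-- the diagonal group of exponent `p` -/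
def DiaG (K : Type u) [Field K] [StarRing K] (n p : ℕ) : Subgroup (GU K n) where
  carrier := {g | ∃ c : Fin n → K, (∀ i, c i ^ p = 1) ∧ g.1 = Matrix.diagonal c}
  one_mem' := ⟨1, fun i => one_pow p, Matrix.diagonal_one.symm⟩
  mul_mem' := by
    rintro a b ⟨c, hc, ha⟩ ⟨d, hd, hb⟩
    refine ⟨fun i => c i * d i, fun i => by rw [mul_pow, hc, hd, one_mul], ?_⟩
    change a.1 * b.1 = _
    rw [ha, hb, Matrix.diagonal_mul_diagonal]
  inv_mem' := by
    rintro a ⟨c, hc, ha⟩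
    refine ⟨fun i => star (c i), fun i => by rw [← star_pow, hc, star_one], ?_⟩
    change star a.1 = _
    rw [ha, Matrix.star_eq_conjTranspose, Matrix.diagonal_conjTranspose]
    rfl

/-- a monomial conjugate of a reflection and of its square: the row has one entry -/
theorem row_one {ζ : K} (h1 : ζ ≠ 1) (h0 : ζ ≠ 0) (h2 : ζ ^ 2 ≠ 1) {g m m' : GU K n}
    {π ρ : Equiv.Perm (Fin n)} (hm : Mon m π) (hm' : Mon m' ρ) {k : Fin n}
    (e : ∀ i j, m.1 i j = (1 : Matrix (Fin n) (Fin n) K) i j +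
      (ζ - 1) * (star (g.1 k i) * g.1 k j))
    (e' : ∀ i j, m'.1 i j = (1 : Matrix (Fin n) (Fin n) K) i j +
      (ζ ^ 2 - 1) * (star (g.1 k i) * g.1 k j)) {i j : Fin n} (hi : g.1 k i ≠ 0)
    (hj : g.1 k j ≠ 0) : i = j := by
  by_contra hij
  have key : ∀ (x : K) (w : GU K n) (τ : Equiv.Perm (Fin n)), x - 1 ≠ 0 → Mon w τ →
      (∀ i j, w.1 i j = (1 : Matrix (Fin n) (Fin n) K) i j +
      (x - 1) * (star (g.1 k i) * g.1 k j)) →
      1 + (x - 1) * (star (g.1 k j) * g.1 k j) = 0 := by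
    intro x w τ hx hw he
    have a1 : w.1 i j ≠ 0 := by
      rw [he, Matrix.one_apply_ne hij, zero_add]
      exact mul_ne_zero hx (mul_ne_zero (star_ne_zero.2 hi) hj)
    have a2 : i = τ j := by
      by_contra hne
      exact a1 (hw j i hne)
    have a3 : w.1 j j = 0 := hw j j (fun h => hij (a2.trans h.symm))
    rw [he, Matrix.one_apply_eq] at a3
    exact a3
  have b1 := key ζ m π (sub_ne_zero.2 h1) hm e
  have b2 := key (ζ ^ 2) m' ρ (sub_ne_zero.2 h2) hm' e'
  have b3 : ζ * (ζ - 1) * (star (g.1 k j) * g.1 k j) = 0 := by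
    linear_combination b2 - b1
  have b4 : star (g.1 k j) * g.1 k j = 0 :=
    (mul_eq_zero.1 b3).resolve_left (mul_ne_zero h0 (sub_ne_zero.2 h1))
  rw [b4, mul_zero, add_zero] at b1
  exact one_ne_zero b1

/-- the conjugate of a reflection -/
theorem conj_refl {x : K} {k : Fin n} (g d : GU K n)
    (hd : d.1 = Matrix.diagonal (Function.update (1 : Fin n → K) k x)) (i j : Fin n) :
    (g⁻¹ * d * g).1 i j = (1 : Matrix (Fin n) (Fin n) K) i j +
      (x - 1) * (star (g.1 k i) * g.1 k j) := by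
  have h1 : star g.1 * g.1 = 1 := Matrix.mem_unitaryGroup_iff'.1 g.2
  change (star g.1 * d.1 * g.1) i j = _
  have h2 : (star g.1 * d.1 * g.1) i j = ∑ a, star (g.1 a i) *
      (Function.update (1 : Fin n → K) k x a) * g.1 a j := by
    rw [Matrix.mul_apply, hd]
    refine Finset.sum_congr rfl fun a _ => ?_
    rw [Matrix.mul_diagonal, Matrix.star_apply]
  have h3 : (1 : Matrix (Fin n) (Fin n) K) i j = ∑ a, star (g.1 a i) * g.1 a j := by
    rw [← h1, Matrix.mul_apply]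
    exact Finset.sum_congr rfl fun a _ => by rw [Matrix.star_apply]
  rw [h2, h3, ← sub_eq_iff_eq_add', ← Finset.sum_sub_distrib, Finset.sum_eq_single k]
  · rw [Function.update_self]
    ring
  · intro a _ ha
    rw [Function.update_of_ne ha, Pi.one_apply, mul_one, sub_self]
  · intro h
    exact absurd (Finset.mem_univ _) h

/-- normalising the diagonal group up to monomial matrices forces monomial -/
theorem mem_MonG {p : ℕ} {ζ : K} (h1 : ζ ≠ 1) (h0 : ζ ≠ 0) (h2 : ζ ^ 2 ≠ 1) (hp : ζ ^ p = 1)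
    (hn : ∀ x : K, x ^ p = 1 → x * star x = 1) (g : GU K n)
    (H : ∀ d ∈ DiaG K n p, g⁻¹ * d * g ∈ MonG K n) : g ∈ MonG K n := by
  have hrow : ∀ k i j, g.1 k i ≠ 0 → g.1 k j ≠ 0 → i = j := by
    intro k i j hi hj
    have hd : ∀ x : K, x ^ p = 1 → ∃ d ∈ DiaG K n p,
        d.1 = Matrix.diagonal (Function.update (1 : Fin n → K) k x) := by
      intro x hx
      have hc : ∀ i, (Function.update (1 : Fin n → K) k x i) ^ p = 1 := by
        intro i
        by_cases hi : i = k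
        · subst hi; rw [Function.update_self, hx]
        · rw [Function.update_of_ne hi, Pi.one_apply, one_pow]
      exact ⟨⟨_, diag_mem fun i => hn _ (hc i)⟩, ⟨_, hc, rfl⟩, rfl⟩
    obtain ⟨d, hdm, hd1⟩ := hd ζ hp
    obtain ⟨d', hdm', hd1'⟩ := hd (ζ ^ 2) (by rw [← pow_mul, mul_comm, pow_mul, hp, one_pow])
    obtain ⟨π, hπ⟩ := H d hdm
    obtain ⟨ρ, hρ⟩ := H d' hdm'
    exact row_one h1 h0 h2 hπ hρ (conj_refl g d hd1) (conj_refl g d' hd1') hi hj
  obtain ⟨σ, hσ⟩ := exists_perm_ne g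
  refine ⟨σ, fun i l hl => ?_⟩
  by_contra hne
  have h3 : g.1 l (σ⁻¹ l) ≠ 0 := by
    have h5 := hσ (σ⁻¹ l)
    have h6 : σ (σ⁻¹ l) = l := σ.apply_symm_apply l
    rwa [h6] at h5
  have h4 := hrow l i (σ⁻¹ l) hne h3
  apply hl
  rw [h4]
  exact (σ.apply_symm_apply l).symm

theorem center_le {ζ : K} (hζ : ζ * star ζ = 1) (h1 : ζ ≠ 1) :
    center (GU K n) ≤ MonG K n := by
  intro w hw
  obtain ⟨z, hz⟩ := cen_scalar hζ h1 hw
  refine ⟨1, fun i l hl => ?_⟩
  have hl' : l ≠ i := hl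
  rw [hz, Matrix.smul_apply, Matrix.one_apply_ne hl', smul_zero]

end

/-- **ROW F** -/
theorem rowF : StmtF.{u} := by
  intro K _ _ _ q hq hF p hp hp2 hpq n hn E hE
  classical
  obtain ⟨ζ, hζp, hζ1, hζd⟩ := exists_zeta (K := K) hp.out hpq (by omega) hF.card
  have hζ0 : ζ ≠ 0 := by
    rintro rfl
    rw [zero_pow hp.out.ne_zero] at hζp
    exact zero_ne_one hζp
  have hζ2 : ζ ^ 2 ≠ 1 := fun h =>
    hp2 ((Nat.prime_dvd_prime_iff_eq hp.out Nat.prime_two).1 (hζd 2 h))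
  have hnorm : ∀ x : K, x ^ p = 1 → x * star x = 1 := by
    intro x hx
    rw [hF.star, ← pow_succ']
    obtain ⟨t, ht⟩ := hpq
    rw [ht, pow_mul, hx, one_pow]
  have hcen : center (GU K n) ≤ MonG K n := center_le (hnorm ζ hζp) hζ1
  haveI : Finite (GU K n) := inferInstance
  -- the images in `PGU`
  let f : GU K n →* PGU K n := QuotientGroup.mk' (center (GU K n))
  let N : Subgroup (PGU K n) := (MonG K n).map f
  let D : Subgroup (PGU K n) := (DiaG K n p).map f
  have hmemN : ∀ g : GU K n, f g ∈ N → g ∈ MonG K n := by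
    rintro g ⟨h, hh, hhg⟩
    have h3 := QuotientGroup.eq.1 (show (QuotientGroup.mk h : PGU K n) = QuotientGroup.mk g from hhg)
    have h4 := mul_mem hh (hcen h3)
    rwa [mul_inv_cancel_left] at h4
  have hD : IsPGroup p D := by
    rintro ⟨_, g, ⟨c, hc, hg⟩, rfl⟩
    refine ⟨1, ?_⟩
    rw [pow_one]
    apply Subtype.ext
    rw [Subgroup.coe_pow, Subgroup.coe_one]
    change f g ^ p = 1
    rw [← map_pow]
    have h5 : g ^ p = 1 := by
      apply Subtype.ext
      change g.1 ^ p = 1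
      rw [hg, Matrix.diagonal_pow, ← Matrix.diagonal_one]
      congr 1
      funext i
      exact hc i
    rw [h5, map_one]
  have hfix : Nat.card (MulAction.fixedPoints D (PGU K n ⧸ N)) = 1 := by
    rw [Nat.card_eq_one_iff_unique]
    refine ⟨⟨?_⟩, ⟨⟨((1 : PGU K n) : PGU K n ⧸ N), ?_⟩⟩⟩
    · have huniq : ∀ x : PGU K n ⧸ N, x ∈ MulAction.fixedPoints D (PGU K n ⧸ N) →
          x = ((1 : PGU K n) : PGU K n ⧸ N) := by
        intro x hx
        obtain ⟨y, rfl⟩ := QuotientGroup.mk_surjective x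
        obtain ⟨g, rfl⟩ := QuotientGroup.mk_surjective y
        have h6 : g ∈ MonG K n := by
          refine mem_MonG hζ1 hζ0 hζ2 hζp hnorm g fun d hd => hmemN _ ?_
          have h7 := hx ⟨f d, ⟨d, hd, rfl⟩⟩
          have h8 : ((f d * f g : PGU K n) : PGU K n ⧸ N) = ((f g : PGU K n) : PGU K n ⧸ N) := h7
          have h9 := QuotientGroup.eq.1 h8.symm
          rwa [← mul_assoc, ← map_inv, ← map_mul, ← map_mul] at h9
        refine (QuotientGroup.eq.2 ?_).symm
        rw [inv_one, one_mul]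
        exact ⟨g, h6, rfl⟩
      rintro ⟨a, ha⟩ ⟨b, hb⟩
      exact Subtype.ext ((huniq a ha).trans (huniq b hb).symm)
    · rintro ⟨_, d, ⟨c, hc, hd⟩, rfl⟩
      have h10 : ((f d * 1 : PGU K n) : PGU K n ⧸ N) = ((1 : PGU K n) : PGU K n ⧸ N) := by
        refine (QuotientGroup.eq.2 ?_).symm
        rw [inv_one, one_mul, mul_one]
        refine ⟨d, ⟨1, fun i l hl => ?_⟩, rfl⟩
        rw [hd]
        exact Matrix.diagonal_apply_ne _ hl
      exact h10
  have hcard := hD.card_modEq_card_fixedPoints (PGU K n ⧸ N)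
  rw [hfix] at hcard
  have hndvd : ¬ p ∣ Nat.card (PGU K n ⧸ N) := by
    intro hdvd
    have h11 := (Nat.modEq_zero_iff_dvd.2 hdvd).symm.trans hcard
    have h12 := (Nat.modEq_iff_dvd' (Nat.zero_le 1)).1 h11
    exact hp.out.one_lt.ne' (Nat.dvd_one.1 h12)
  obtain ⟨x, hx⟩ := hE.nonempty_fixed_point_of_prime_not_dvd_card (PGU K n ⧸ N) hndvd
  obtain ⟨y, rfl⟩ := QuotientGroup.mk_surjective x
  obtain ⟨g, rfl⟩ := QuotientGroup.mk_surjective y
  refine ⟨g, fun y hy => ?_⟩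
  have h7 := hx ⟨y, hy⟩
  have h8 : ((y * f g : PGU K n) : PGU K n ⧸ N) = ((f g : PGU K n) : PGU K n ⧸ N) := h7
  have h9 := QuotientGroup.eq.1 h8.symm
  obtain ⟨h, ⟨π, hπ⟩, hh⟩ := h9
  refine ⟨h, π, hπ, ?_⟩
  have h10 : y = f g * f h * (f g)⁻¹ := by
    rw [hh]
    group
  rw [h10, ← map_inv, ← map_mul, ← map_mul]
  rfl

end Vale.Agent.P240.R2.H257
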