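import Vale.Agent.P240.R2.H257.SUGen
import Vale.Agent.P240.R2.H472.Nrm

set_option autoImplicit false

namespace Vale.Agent.P240.R2.H257

open Matrix Finset Polynomial

universe u

variable {K : Type u} [Field K] [Fintype K] [StarRing K] {q : ℕ}

theorem exists_trace_ne (hK : Fintype.card K = q ^ 2) (hs : ∀ x : K, star x = x ^ q) :
    ∃ x : K, x + star x ≠ 0 := by
  classical
  by_contra hcon
  have hall : ∀ x : K, x ^ q + x = 0 := by
    intro x
    by_contra h
    exact hcon ⟨x, by rw [hs, add_comm]; exact h⟩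
  have hq := H472.one_lt (q := q) hK
  have hdeg : (X ^ q + X : K[X]).natDegree = q := by
    rw [natDegree_add_eq_left_of_natDegree_lt]
    · exact natDegree_X_pow q
    · rw [natDegree_X_pow, natDegree_X]
      exact hq
  have hne : (X ^ q + X : K[X]) ≠ 0 := by
    intro h
    rw [h, natDegree_zero] at hdeg
    omega
  have hsub : (Finset.univ : Finset K) ⊆ (X ^ q + X : K[X]).roots.toFinset := by
    intro x _
    rw [Multiset.mem_toFinset, mem_roots hne]
    simp [IsRoot, hall x]
  have h1 : Fintype.card K ≤ q := by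
    calc Fintype.card K = (Finset.univ : Finset K).card := rfl
      _ ≤ _ := Finset.card_le_card hsub
      _ ≤ Multiset.card (X ^ q + X : K[X]).roots := Multiset.toFinset_card_le _
      _ ≤ (X ^ q + X : K[X]).natDegree := card_roots' _
      _ = q := hdeg
  rw [hK] at h1
  nlinarith

theorem exists_norm_ne (hq : 3 ≤ q) (hK : Fintype.card K = q ^ 2) (hs : ∀ x : K, star x = x ^ q) :
    ∃ x : K, x ≠ 0 ∧ star x * x ≠ 1 := by
  classical
  by_contra hcon
  have hall : ∀ x : K, x ≠ 0 → x ^ (q + 1) = 1 := by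
    intro x hx
    by_contra h
    exact hcon ⟨x, hx, by rw [H472.star_mul_self_pow hs]; exact h⟩
  have h1 := H472.card_pow_le (K := K) (q := q) 1
  have h2 : (univ.filter (fun x : K => x ≠ 0)).card ≤
      (univ.filter (fun x : K => x ^ (q + 1) = 1)).card := by
    refine Finset.card_le_card ?_
    intro x hx
    rw [Finset.mem_filter] at hx ⊢
    exact ⟨hx.1, hall x hx.2⟩
  rw [Finset.filter_ne', Finset.card_erase_of_mem (Finset.mem_univ _), Finset.card_univ, hK] at h2
  have h3 : q ^ 2 - 1 ≤ q + 1 := h2.trans h1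
  have h4 : q ^ 2 ≤ q + 2 := by omega
  nlinarith

theorem fld (hq : 3 ≤ q) (hK : Fintype.card K = q ^ 2) (hs : ∀ x : K, star x = x ^ q) : Fld K where
  norm c h0 hc := H472.exists_norm hK hs h0 hc
  trace d hd := by
    obtain ⟨x, hx⟩ := exists_trace_ne hK hs
    refine ⟨d * x / (x + star x), ?_⟩
    rw [star_div₀, star_mul', star_add, star_star, hd, add_comm (star x) x, ← add_div, ← mul_add]
    field_simp
  two h2 := by
    obtain ⟨x, hx, hx1⟩ := exists_norm_ne hq hK hs
    refine ⟨star x * x, nrm_ne hx, nrm_star x, ?_⟩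
    intro h
    apply hx1
    have : (star x * x - 1) * (star x * x - 1) = 0 := by
      linear_combination h + (1 - star x * x) * h2
    exact sub_eq_zero.1 (mul_self_eq_zero.1 this)

/-- `SU_n(q)`, `q ≥ 3`, is generated by the coordinate subgroups `SU_2(q)` -/
theorem SU_gen (hq : 3 ≤ q) (hK : Nat.card K = q ^ 2) (hs : ∀ x : K, star x = x ^ q) (n : ℕ)
    (H : Subgroup (unitaryGroup (Fin n) K)) (hH : HasCoord H) (g : unitaryGroup (Fin n) K)
    (hg : g.1.det = 1) : g ∈ H := by
  classical
  have hF : Fld K := fld hq (by rw [← hK, Nat.card_eq_fintype_card]) hs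
  match n, H, hH, g, hg with
  | 0, H, hH, g, hg =>
    have : g = 1 := by
      apply Subtype.ext
      ext i
      exact i.elim0
    rw [this]
    exact H.one_mem
  | 1, H, hH, g, hg =>
    have : g = 1 := by
      apply Subtype.ext
      ext i j
      have hi : i = 0 := Subsingleton.elim _ _
      have hj : j = 0 := Subsingleton.elim _ _
      rw [hi, hj]
      rw [det_fin_one] at hg
      rw [hg]
      rfl
    rw [this]
    exact H.one_mem
  | n + 2, H, hH, g, hg =>
    refine gen_aux hF hH (fun s => ?_) _ Finset.univ le_rfl g hg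
      (fun k hk => absurd (Finset.mem_univ k) hk)
    by_cases h : s = 0
    · exact ⟨1, by rw [h]; exact one_ne_zero⟩
    · exact ⟨0, Ne.symm h⟩

/-- `H` contains the coordinate `SU_2` of the pairs `i0`, `j` -/
def HasCoordAt {K : Type u} [Field K] [StarRing K] {ι : Type*} [Fintype ι] [DecidableEq ι]
    (i0 : ι) (H : Subgroup (unitaryGroup ι K)) : Prop :=
  ∀ j : ι, j ≠ i0 → ∀ g : unitaryGroup ι K, g.1.det = 1 →
    (∀ k, k ≠ i0 → k ≠ j → g.1 *ᵥ (Pi.single k 1) = Pi.single k 1) → g ∈ H

section at0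

variable {K : Type u} [Field K] [StarRing K] {ι : Type*} [Fintype ι] [DecidableEq ι]

theorem zero_one_aux : (0 : K) * star (0 : K) + (1 : K) * star (1 : K) = 1 := by simp

/-- `e_i ↦ e_j ↦ - e_i` -/
def swp {i j : ι} (h : i ≠ j) : unitaryGroup ι K := su2 h (zero_one_aux (K := K))

theorem swp_mulVec {i j : ι} (h : i ≠ j) (x : ι → K) :
    (swp (K := K) h).1 *ᵥ x = Function.update (Function.update x i (-x j)) j (x i) := by
  unfold swp
  rw [su2_mulVec]
  simp

theorem swp_single_left {i j : ι} (h : i ≠ j) :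
    (swp (K := K) h).1 *ᵥ (Pi.single i 1) = Pi.single j 1 := by
  rw [swp_mulVec, Pi.single_eq_same, Pi.single_eq_of_ne (Ne.symm h)]
  funext k
  by_cases hj : k = j
  · subst hj
    rw [Function.update_self, Pi.single_eq_same]
  · rw [Function.update_of_ne hj, Pi.single_eq_of_ne hj]
    by_cases hi : k = i
    · subst hi
      rw [Function.update_self, neg_zero]
    · rw [Function.update_of_ne hi, Pi.single_eq_of_ne hi]

theorem swp_single_right {i j : ι} (h : i ≠ j) :
    (swp (K := K) h).1 *ᵥ (Pi.single j 1) = -Pi.single i 1 := by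
  rw [swp_mulVec, Pi.single_eq_same, Pi.single_eq_of_ne h]
  funext k
  by_cases hj : k = j
  · subst hj
    rw [Function.update_self, Pi.neg_apply, Pi.single_eq_of_ne (Ne.symm h), neg_zero]
  · rw [Function.update_of_ne hj, Pi.neg_apply]
    by_cases hi : k = i
    · subst hi
      rw [Function.update_self, Pi.single_eq_same]
    · rw [Function.update_of_ne hi, Pi.single_eq_of_ne hj, Pi.single_eq_of_ne hi, neg_zero]

theorem swp_single_ne {i j k : ι} (h : i ≠ j) (hi : k ≠ i) (hj : k ≠ j) :
    (swp (K := K) h).1 *ᵥ (Pi.single k 1) = Pi.single k 1 := by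
  rw [swp_mulVec, Pi.single_eq_of_ne (Ne.symm hi), Pi.single_eq_of_ne (Ne.symm hj)]
  funext l
  by_cases h1 : l = j
  · subst h1
    rw [Function.update_self, Pi.single_eq_of_ne (Ne.symm hj)]
  · rw [Function.update_of_ne h1]
    by_cases h2 : l = i
    · subst h2
      rw [Function.update_self, Pi.single_eq_of_ne (Ne.symm hi), neg_zero]
    · rw [Function.update_of_ne h2]

theorem inv_mulVec {g : unitaryGroup ι K} {x y : ι → K} (h : g.1 *ᵥ x = y) :
    (g⁻¹).1 *ᵥ y = x := by
  rw [← h, mulVec_mulVec]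
  have : (g⁻¹).1 * g.1 = 1 := by
    have := congrArg Subtype.val (inv_mul_cancel g)
    exact this
  rw [this, one_mulVec]

theorem hasCoord_of_at {i0 : ι} {H : Subgroup (unitaryGroup ι K)} (hH : HasCoordAt i0 H) :
    HasCoord H := by
  intro i j hij g hg hf
  by_cases hi : i = i0
  · subst hi
    exact hH j (Ne.symm hij) g hg hf
  by_cases hj : j = i0
  · subst hj
    exact hH i hij g hg (fun k h1 h2 => hf k h2 h1)
  have h0 : i0 ≠ i := Ne.symm hi
  have hw : swp (K := K) h0 ∈ H := by
    refine hH i hi _ (su2_det _ _) ?_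
    intro k h1 h2
    exact swp_single_ne h0 h1 h2
  have hg' : (swp (K := K) h0)⁻¹ * g * swp (K := K) h0 ∈ H := by
    refine hH j hj _ ?_ ?_
    · show (((swp (K := K) h0)⁻¹).1 * g.1 * (swp (K := K) h0).1).det = 1
      have e : ((swp (K := K) h0)⁻¹).1 * (swp (K := K) h0).1 = 1 := by
        have := congrArg Subtype.val (inv_mul_cancel (swp (K := K) h0))
        exact this
      rw [det_mul, det_mul, hg, mul_one, ← det_mul, e, det_one]
    · intro k h1 h2
      show (((swp (K := K) h0)⁻¹).1 * g.1 * (swp (K := K) h0).1) *ᵥ _ = _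
      rw [← mulVec_mulVec, ← mulVec_mulVec]
      by_cases h3 : k = i
      · subst h3
        rw [swp_single_right, mulVec_neg, hf i0 h0 (Ne.symm hj), ← swp_single_right h0]
        exact inv_mulVec rfl
      · rw [swp_single_ne h0 h1 h3, hf k h3 h2]
        exact inv_mulVec (swp_single_ne h0 h1 h3)
  have := H.mul_mem (H.mul_mem hw hg') (H.inv_mem hw)
  have e : swp (K := K) h0 * ((swp (K := K) h0)⁻¹ * g * swp (K := K) h0) * (swp (K := K) h0)⁻¹
      = g := by group
  rwa [e] at this

end at0

/-- `SU_n(q)`, `q ≥ 3`, is generated by the coordinate subgroups `SU_2(q)` of the pairs `i0`, `j` -/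
theorem SU_gen_at (hq : 3 ≤ q) (hK : Nat.card K = q ^ 2) (hs : ∀ x : K, star x = x ^ q) (n : ℕ)
    (i0 : Fin n) (H : Subgroup (unitaryGroup (Fin n) K)) (hH : HasCoordAt i0 H)
    (g : unitaryGroup (Fin n) K) (hg : g.1.det = 1) : g ∈ H :=
  SU_gen hq hK hs n H (hasCoord_of_at hH) g hg

end Vale.Agent.P240.R2.H257
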