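import Mathlib

set_option autoImplicit false

namespace Vale.Agent.P240.R2.H257

open Matrix Finset

universe u

variable {K : Type u} [Field K] [StarRing K] {ι : Type*} [Fintype ι] [DecidableEq ι]

/-- the coordinate embedding of the plane -/
def emb (K : Type u) [Field K] (i j : ι) : Matrix ι (Fin 2) K :=
  (1 : Matrix ι ι K).submatrix id ![i, j]

omit [Fintype ι] [DecidableEq ι] in
theorem inj2 {i j : ι} (h : i ≠ j) : Function.Injective ![i, j] := by
  intro a b hab
  fin_cases a <;> fin_cases b <;> simp_all

theorem emb_star_mul {i j : ι} (h : i ≠ j) : (emb K i j)ᴴ * emb K i j = 1 := by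
  unfold emb
  rw [conjTranspose_submatrix, conjTranspose_one, ← submatrix_mul _ _ _ _ _ Function.bijective_id,
    one_mul, submatrix_one _ (inj2 h)]

/-- a `2 × 2` matrix acting on the coordinates `i`, `j` -/
def blk (i j : ι) (m : Matrix (Fin 2) (Fin 2) K) : Matrix ι ι K :=
  1 + emb K i j * (m - 1) * (emb K i j)ᴴ

theorem blk_mul {i j : ι} (h : i ≠ j) (m m' : Matrix (Fin 2) (Fin 2) K) :
    blk i j m * blk i j m' = blk i j (m * m') := by
  have e := emb_star_mul (K := K) h
  unfold blk
  set P := emb K i j
  have : P * (m - 1) * Pᴴ * (P * (m' - 1) * Pᴴ) = P * ((m - 1) * (m' - 1)) * Pᴴ := by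
    calc P * (m - 1) * Pᴴ * (P * (m' - 1) * Pᴴ) = P * (m - 1) * (Pᴴ * P) * ((m' - 1) * Pᴴ) := by
          simp only [Matrix.mul_assoc]
      _ = _ := by rw [e, Matrix.mul_one]; simp only [Matrix.mul_assoc]
  rw [add_mul, mul_add, mul_add, one_mul, mul_one, one_mul, this]
  have h2 : m * m' - 1 = (m - 1) + (m' - 1) + (m - 1) * (m' - 1) := by noncomm_ring
  rw [h2, Matrix.mul_add, Matrix.mul_add, Matrix.add_mul, Matrix.add_mul]
  abel

omit [Fintype ι] in
theorem blk_one (i j : ι) : blk i j (1 : Matrix (Fin 2) (Fin 2) K) = 1 := by
  simp [blk]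

omit [Fintype ι] in
theorem blk_star (i j : ι) (m : Matrix (Fin 2) (Fin 2) K) : star (blk i j m) = blk i j (star m) := by
  unfold blk
  simp only [star_eq_conjTranspose, conjTranspose_add, conjTranspose_one, conjTranspose_mul,
    conjTranspose_conjTranspose, conjTranspose_sub, Matrix.mul_assoc]

theorem blk_det {i j : ι} (h : i ≠ j) (m : Matrix (Fin 2) (Fin 2) K) : (blk i j m).det = m.det := by
  unfold blk
  rw [Matrix.mul_assoc, det_one_add_mul_comm, Matrix.mul_assoc, emb_star_mul h, Matrix.mul_one]
  simp

theorem embT_mulVec (i j : ι) (x : ι → K) : (emb K i j)ᴴ *ᵥ x = ![x i, x j] := by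
  funext a
  unfold emb
  rw [conjTranspose_submatrix, conjTranspose_one]
  simp only [mulVec, dotProduct, submatrix_apply, id, one_apply, ite_mul, one_mul, zero_mul,
    Finset.sum_ite_eq, Finset.mem_univ, if_true]
  fin_cases a <;> rfl

theorem emb_mulVec (i j : ι) (y : Fin 2 → K) (k : ι) :
    (emb K i j *ᵥ y) k = (if k = i then y 0 else 0) + (if k = j then y 1 else 0) := by
  unfold emb
  simp only [mulVec, dotProduct, submatrix_apply, id, one_apply, ite_mul, one_mul, zero_mul,
    Fin.sum_univ_two, Matrix.cons_val_zero, Matrix.cons_val_one]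
  rfl

theorem blk_mulVec {i j : ι} (h : i ≠ j) (m : Matrix (Fin 2) (Fin 2) K) (x : ι → K) :
    blk i j m *ᵥ x = Function.update (Function.update x i (m 0 0 * x i + m 0 1 * x j)) j
      (m 1 0 * x i + m 1 1 * x j) := by
  funext k
  unfold blk
  rw [add_mulVec, one_mulVec, ← mulVec_mulVec, ← mulVec_mulVec, embT_mulVec, Pi.add_apply,
    emb_mulVec]
  by_cases hj : k = j
  · subst hj
    rw [Function.update_self, if_neg (Ne.symm h), if_pos rfl]
    simp [mulVec, dotProduct, Fin.sum_univ_two, Matrix.sub_apply]
    ring
  · rw [Function.update_of_ne hj, if_neg hj]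
    by_cases hi : k = i
    · subst hi
      rw [Function.update_self, if_pos rfl]
      simp [mulVec, dotProduct, Fin.sum_univ_two, Matrix.sub_apply]
      ring
    · rw [Function.update_of_ne hi, if_neg hi]
      simp

/-- the matrix `[[a, -b*], [b, a*]]` -/
def sm2 (a b : K) : Matrix (Fin 2) (Fin 2) K := !![a, -star b; b, star a]

theorem sm2_det {a b : K} (h : a * star a + b * star b = 1) : (sm2 a b).det = 1 := by
  unfold sm2
  rw [det_fin_two_of]
  rw [← h]
  ring

theorem sm2_unit {a b : K} (h : a * star a + b * star b = 1) : sm2 a b * star (sm2 a b) = 1 := by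
  have h' : star a * a + star b * b = 1 := by rw [← h]; ring
  ext r c
  fin_cases r <;> fin_cases c
  · simp [sm2, Matrix.mul_apply, Fin.sum_univ_two, star_apply]
    rw [← h]
    ring
  · simp [sm2, Matrix.mul_apply, Fin.sum_univ_two, star_apply]
    ring
  · simp [sm2, Matrix.mul_apply, Fin.sum_univ_two, star_apply]
    ring
  · simp [sm2, Matrix.mul_apply, Fin.sum_univ_two, star_apply]
    rw [← h]
    ring

theorem blk_mem {i j : ι} (hij : i ≠ j) {a b : K} (h : a * star a + b * star b = 1) :
    blk i j (sm2 a b) ∈ unitaryGroup ι K := by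
  rw [mem_unitaryGroup_iff, blk_star, blk_mul hij, sm2_unit h, blk_one]

/-- the element of the coordinate `SU_2` -/
def su2 {i j : ι} (hij : i ≠ j) {a b : K} (h : a * star a + b * star b = 1) : unitaryGroup ι K :=
  ⟨blk i j (sm2 a b), blk_mem hij h⟩

theorem su2_mulVec {i j : ι} (hij : i ≠ j) {a b : K} (h : a * star a + b * star b = 1)
    (x : ι → K) : (su2 hij h).1 *ᵥ x =
      Function.update (Function.update x i (a * x i - star b * x j)) j (b * x i + star a * x j) := by
  show blk i j (sm2 a b) *ᵥ x = _
  rw [blk_mulVec hij]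
  congr 2
  simp [sm2]
  ring

theorem su2_det {i j : ι} (hij : i ≠ j) {a b : K} (h : a * star a + b * star b = 1) :
    (su2 hij h).1.det = 1 := by
  show (blk i j (sm2 a b)).det = 1
  rw [blk_det hij, sm2_det h]

/-- `H` contains the coordinate `SU_2` -/
def HasCoord (H : Subgroup (unitaryGroup ι K)) : Prop :=
  ∀ i j : ι, i ≠ j → ∀ g : unitaryGroup ι K, g.1.det = 1 →
    (∀ k, k ≠ i → k ≠ j → g.1 *ᵥ (Pi.single k 1) = Pi.single k 1) → g ∈ H

theorem su2_mem {H : Subgroup (unitaryGroup ι K)} (hH : HasCoord H) {i j : ι} (hij : i ≠ j)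
    {a b : K} (h : a * star a + b * star b = 1) : su2 hij h ∈ H := by
  refine hH i j hij _ (su2_det hij h) ?_
  intro k hki hkj
  rw [su2_mulVec]
  have e1 : (Pi.single k (1 : K) : ι → K) i = 0 := Pi.single_eq_of_ne (Ne.symm hki) _
  have e2 : (Pi.single k (1 : K) : ι → K) j = 0 := Pi.single_eq_of_ne (Ne.symm hkj) _
  rw [e1, e2]
  funext l
  by_cases hj : l = j
  · subst hj
    rw [Function.update_self, e2]
    simp
  · rw [Function.update_of_ne hj]
    by_cases hi : l = i
    · subst hi
      rw [Function.update_self, e1]
      simp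
    · rw [Function.update_of_ne hi]

/-- `y` is in the orbit of `x` under the elements of `H` fixing the coordinates outside `S` -/
def Rel (H : Subgroup (unitaryGroup ι K)) (S : Finset ι) (x y : ι → K) : Prop :=
  ∃ h ∈ H, (h.1.det = 1 ∧ ∀ k, k ∉ S → h.1 *ᵥ (Pi.single k 1) = Pi.single k 1) ∧ h.1 *ᵥ x = y

theorem Rel.trans {H : Subgroup (unitaryGroup ι K)} {S : Finset ι} {x y z : ι → K}
    (h1 : Rel H S x y) (h2 : Rel H S y z) : Rel H S x z := by
  obtain ⟨h, hh, ⟨hd, hf⟩, rfl⟩ := h1
  obtain ⟨h', hh', ⟨hd', hf'⟩, rfl⟩ := h2
  refine ⟨h' * h, H.mul_mem hh' hh, ⟨?_, ?_⟩, ?_⟩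
  · show (h'.1 * h.1).det = 1
    rw [det_mul, hd, hd', mul_one]
  · intro k hk
    show (h'.1 * h.1) *ᵥ _ = _
    rw [← mulVec_mulVec, hf k hk, hf' k hk]
  · show (h'.1 * h.1) *ᵥ _ = _
    rw [← mulVec_mulVec]

theorem su2_rel {H : Subgroup (unitaryGroup ι K)} (hH : HasCoord H) {S : Finset ι} {i j : ι}
    (hij : i ≠ j) (hi : i ∈ S) (hj : j ∈ S) {a b : K} (h : a * star a + b * star b = 1)
    (x : ι → K) : Rel H S x
      (Function.update (Function.update x i (a * x i - star b * x j)) j
        (b * x i + star a * x j)) := by
  refine ⟨su2 hij h, su2_mem hH hij h, ⟨su2_det hij h, ?_⟩, su2_mulVec hij h x⟩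
  intro k hk
  have hki : k ≠ i := fun e => hk (e ▸ hi)
  have hkj : k ≠ j := fun e => hk (e ▸ hj)
  rw [su2_mulVec]
  have e1 : (Pi.single k (1 : K) : ι → K) i = 0 := Pi.single_eq_of_ne (Ne.symm hki) _
  have e2 : (Pi.single k (1 : K) : ι → K) j = 0 := Pi.single_eq_of_ne (Ne.symm hkj) _
  rw [e1, e2]
  funext l
  by_cases hj : l = j
  · subst hj
    rw [Function.update_self, e2]
    simp
  · rw [Function.update_of_ne hj]
    by_cases hi : l = i
    · subst hi
      rw [Function.update_self, e1]
      simp
    · rw [Function.update_of_ne hi]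

/-- the two coordinates are combined -/
theorem stepA {H : Subgroup (unitaryGroup ι K)} (hH : HasCoord H) {S : Finset ι} {i j : ι}
    (hij : i ≠ j) (hi : i ∈ S) (hj : j ∈ S) (x : ι → K) {l : K} (hl : l ≠ 0)
    (h : star l * l = star (x i) * x i + star (x j) * x j) :
    Rel H S x (Function.update (Function.update x i l) j 0) := by
  have hsl : star l ≠ 0 := by
    intro e
    exact hl (star_eq_zero.1 e)
  have hab : (star (x i) / star l) * star (star (x i) / star l) +
      (-(x j) / l) * star (-(x j) / l) = 1 := by
    simp only [star_div₀, star_star, star_neg]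
    have : star (x i) / star l * (x i / l) + -x j / l * (-star (x j) / star l) =
        (star (x i) * x i + star (x j) * x j) / (star l * l) := by
      field_simp
    rw [this, ← h]
    exact div_self (mul_ne_zero hsl hl)
  have := su2_rel hH hij hi hj hab x
  have e1 : (star (x i) / star l) * x i - star (-(x j) / l) * x j = l := by
    simp only [star_div₀, star_neg]
    have : star (x i) / star l * x i - -star (x j) / star l * x j =
        (star (x i) * x i + star (x j) * x j) / star l := by
      field_simp
      ring
    rw [this, ← h]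
    field_simp
  have e2 : (-(x j) / l) * x i + star (star (x i) / star l) * x j = 0 := by
    simp only [star_div₀, star_star]
    field_simp
    ring
  rwa [e1, e2] at this

/-- an isotropic pair is scaled -/
theorem stepB {H : Subgroup (unitaryGroup ι K)} (hH : HasCoord H) {S : Finset ι} {i j : ι}
    (hij : i ≠ j) (hi : i ∈ S) (hj : j ∈ S) (x : ι → K) (hx : x i ≠ 0)
    (h : star (x i) * x i + star (x j) * x j = 0) {t : K} (ht : t ≠ 0) (hts : star t = t)
    (hT : ∀ d : K, star d = d → ∃ a, a + star a = d) :
    Rel H S x (Function.update (Function.update x i (t * x i)) j (t * x j)) := by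
  obtain ⟨a, ha⟩ := hT ((1 + t * t) / t) (by simp [hts])
  have hsx : star (x i) ≠ 0 := by
    intro e
    exact hx (star_eq_zero.1 e)
  have hkey : star (x j) * x j = - (star (x i) * x i) := by
    rw [eq_neg_iff_add_eq_zero, add_comm]
    exact h
  have hta : t * a + t * star a = 1 + t * t := by
    rw [← mul_add, ha]
    field_simp
  have hxj : x j ≠ 0 := by
    intro e
    rw [e, mul_zero, eq_comm, neg_eq_zero] at hkey
    exact mul_ne_zero hsx hx hkey
  have hsxj : star (x j) ≠ 0 := by
    intro e
    exact hxj (star_eq_zero.1 e)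
  set b := -((star a - t) * x j / x i) with hb
  have hsb : star b = -((a - t) * star (x j) / star (x i)) := by
    rw [hb]
    simp only [star_neg, star_div₀, star_mul', star_sub, star_star, hts]
  have hq : x j * star (x j) / (x i * star (x i)) = -1 := by
    rw [div_eq_iff (mul_ne_zero hx hsx)]
    rw [mul_comm (x j), hkey]
    ring
  have hab : a * star a + b * star b = 1 := by
    have : b * star b = (star a - t) * (a - t) * (x j * star (x j) / (x i * star (x i))) := by
      rw [hsb, hb]
      field_simp
    rw [this, hq]
    linear_combination hta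
  have := su2_rel hH hij hi hj hab x
  have e1 : a * x i - star b * x j = t * x i := by
    rw [hsb]
    have : a * x i - -((a - t) * star (x j) / star (x i)) * x j =
        a * x i + (a - t) * (star (x j) * x j) / star (x i) := by
      field_simp
      ring
    rw [this, hkey]
    field_simp
    ring
  have e2 : b * x i + star a * x j = t * x j := by
    rw [hb]
    field_simp
    ring
  rwa [e1, e2] at this

/-- the facts about the field which are used: norm and trace are onto, `q > 2` if `q` is even -/
structure Fld (K : Type u) [Field K] [StarRing K] : Prop where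
  norm : ∀ c : K, c ≠ 0 → star c = c → ∃ x, star x * x = c
  trace : ∀ d : K, star d = d → ∃ a, a + star a = d
  two : (2 : K) = 0 → ∃ t : K, t ≠ 0 ∧ star t = t ∧ t * t ≠ 1

theorem unit_sum (x : ι → K) : star x ⬝ᵥ x = ∑ i, star (x i) * x i := rfl

theorem nrm_ne {c : K} (h : c ≠ 0) : star c * c ≠ 0 :=
  mul_ne_zero (fun e => h (star_eq_zero.1 e)) h

theorem nrm_star (c : K) : star (star c * c) = star c * c := by
  rw [star_mul', star_star, mul_comm]

theorem Rel.norm {H : Subgroup (unitaryGroup ι K)} {S : Finset ι} {x y : ι → K}
    (h : Rel H S x y) : star y ⬝ᵥ y = star x ⬝ᵥ x := by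
  obtain ⟨g, -, -, rfl⟩ := h
  have hg : (g.1)ᴴ * g.1 = 1 := by
    have := g.2
    rw [mem_unitaryGroup_iff'] at this
    exact this
  rw [star_mulVec, ← dotProduct_mulVec, mulVec_mulVec, hg, one_mulVec]

open scoped Classical in
theorem trans_aux (hF : Fld K) {H : Subgroup (unitaryGroup ι K)} (hH : HasCoord H)
    {S : Finset ι} {s : ι} (hs : s ∈ S) (hS : ∃ s' ∈ S, s' ≠ s) :
    ∀ (m : ℕ) (x : ι → K), (∀ k, k ∉ S → x k = 0) → star x ⬝ᵥ x = 1 →
      (univ.filter (fun i => x i ≠ 0)).card ≤ m → Rel H S x (Pi.single s 1) := by
  intro m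
  induction m with
  | zero =>
    intro x _ h1 hm
    exfalso
    have : x = 0 := by
      funext i
      by_contra hi
      have : i ∈ univ.filter (fun i => x i ≠ 0) := by simpa using hi
      have := Finset.card_pos.2 ⟨i, this⟩
      omega
    rw [this] at h1
    simp at h1
  | succ m ih =>
    intro x hx h1 hm
    by_cases hcase : ∃ j ∈ S, j ≠ s ∧ ∀ k, k ≠ s → k ≠ j → x k = 0
    · obtain ⟨j, hj, hjs, hk⟩ := hcase
      have hsum : star (x s) * x s + star (x j) * x j = 1 := by
        rw [← h1, unit_sum, ← Finset.sum_subset (Finset.subset_univ {s, j}),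
          Finset.sum_pair (Ne.symm hjs)]
        intro k _ hkn
        rw [Finset.mem_insert, Finset.mem_singleton, not_or] at hkn
        rw [hk k hkn.1 hkn.2, mul_zero]
      have := stepA hH (Ne.symm hjs) hs hj x (l := 1) one_ne_zero (by rw [hsum]; simp)
      have e : Function.update (Function.update x s 1) j 0 = Pi.single s (1 : K) := by
        funext k
        by_cases h2 : k = j
        · subst h2
          rw [Function.update_self, Pi.single_eq_of_ne hjs]
        · rw [Function.update_of_ne h2]
          by_cases h3 : k = s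
          · subst h3
            rw [Function.update_self, Pi.single_eq_same]
          · rw [Function.update_of_ne h3, Pi.single_eq_of_ne h3, hk k h3 h2]
      rwa [e] at this
    · -- at least two nonzero coordinates
      have hmem : ∀ k, x k ≠ 0 → k ∈ S := fun k hk => by
        by_contra h2
        exact hk (hx k h2)
      -- reduction by one
      have hred : ∀ (y : ι → K) (i j : ι), (∀ k, k ∉ S → y k = 0) → star y ⬝ᵥ y = 1 →
          (univ.filter (fun i => y i ≠ 0)).card ≤ m + 1 → i ≠ j → y i ≠ 0 → y j ≠ 0 →
          star (y i) * y i + star (y j) * y j ≠ 0 → Rel H S y (Pi.single s 1) := by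
        intro y i j hy hy1 hym hij hyi hyj hne
        have hi : i ∈ S := by
          by_contra h2
          exact hyi (hy i h2)
        have hj : j ∈ S := by
          by_contra h2
          exact hyj (hy j h2)
        obtain ⟨l, hl⟩ := hF.norm _ hne (by rw [star_add, nrm_star, nrm_star])
        have hl0 : l ≠ 0 := by
          rintro rfl
          rw [mul_zero] at hl
          exact hne hl.symm
        have hr := stepA hH hij hi hj y hl0 hl
        refine hr.trans (ih _ ?_ ?_ ?_)
        · intro k hk
          have h2 : k ≠ j := fun e => hk (e ▸ hj)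
          have h3 : k ≠ i := fun e => hk (e ▸ hi)
          rw [Function.update_of_ne h2, Function.update_of_ne h3, hy k hk]
        · rw [hr.norm, hy1]
        · have hsub : (univ.filter (fun k => (Function.update (Function.update y i l) j 0) k ≠ 0))
              ⊆ (univ.filter (fun k => y k ≠ 0)).erase j := by
            intro k hk
            rw [Finset.mem_filter] at hk
            rw [Finset.mem_erase, Finset.mem_filter]
            have h2 : k ≠ j := by
              rintro rfl
              rw [Function.update_self] at hk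
              exact hk.2 rfl
            refine ⟨h2, Finset.mem_univ _, ?_⟩
            by_cases h3 : k = i
            · rw [h3]
              exact hyi
            · have := hk.2
              rwa [Function.update_of_ne h2, Function.update_of_ne h3] at this
          have h2 := Finset.card_le_card hsub
          rw [Finset.card_erase_of_mem (by simpa using hyj)] at h2
          omega
      by_cases hpair : ∃ i j, i ≠ j ∧ x i ≠ 0 ∧ x j ≠ 0 ∧
          star (x i) * x i + star (x j) * x j ≠ 0
      · obtain ⟨i, j, hij, hi, hj, hne⟩ := hpair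
        exact hred x i j hx h1 hm hij hi hj hne
      · -- all pairs are isotropic
        have hpair' : ∀ i j, i ≠ j → x i ≠ 0 → x j ≠ 0 →
            star (x i) * x i + star (x j) * x j = 0 := by
          intro i j hij hi hj
          by_contra h2
          exact hpair ⟨i, j, hij, hi, hj, h2⟩
        -- three different nonzero coordinates
        obtain ⟨i, hi⟩ : ∃ i, x i ≠ 0 := by
          by_contra h2
          have h3 : ∀ i, x i = 0 := by
            intro i
            by_contra h4
            exact h2 ⟨i, h4⟩
          rw [unit_sum] at h1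
          simp [h3] at h1
        obtain ⟨j, hij, hj⟩ : ∃ j, i ≠ j ∧ x j ≠ 0 := by
          by_contra h2
          have h3 : ∀ k, k ≠ i → x k = 0 := by
            intro k hk
            by_contra h4
            exact h2 ⟨k, Ne.symm hk, h4⟩
          obtain ⟨s', hs', hss'⟩ := hS
          by_cases his : i = s
          · exact hcase ⟨s', hs', hss', fun k hk _ => h3 k (by rw [his]; exact hk)⟩
          · exact hcase ⟨i, hmem i hi, his, fun k _ hk => h3 k hk⟩
        obtain ⟨k, hik, hjk, hk⟩ : ∃ k, i ≠ k ∧ j ≠ k ∧ x k ≠ 0 := by
          by_contra h2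
          have h3 : ∀ k, k ∉ ({i, j} : Finset ι) → x k = 0 := by
            intro k hk
            rw [Finset.mem_insert, Finset.mem_singleton, not_or] at hk
            by_contra h4
            exact h2 ⟨k, Ne.symm hk.1, Ne.symm hk.2, h4⟩
          have : (1 : K) = 0 := by
            rw [← h1, unit_sum, ← Finset.sum_subset (Finset.subset_univ {i, j}),
              Finset.sum_pair hij, hpair' i j hij hi hj]
            intro k _ hkn
            rw [h3 k hkn, mul_zero]
          exact one_ne_zero this
        have hIJ := hpair' i j hij hi hj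
        have hIK := hpair' i k hik hi hk
        have hJK := hpair' j k hjk hj hk
        have h2 : (2 : K) = 0 := by
          have : (2 : K) * (star (x i) * x i) = 0 := by
            linear_combination hIJ + hIK - hJK
          rcases mul_eq_zero.1 this with h3 | h3
          · exact h3
          · exact absurd h3 (nrm_ne hi)
        obtain ⟨t, ht, hts, htt⟩ := hF.two h2
        have hr := stepB hH hij (hmem i hi) (hmem j hj) x hi hIJ ht hts hF.trace
        have hyk : ∀ l, (Function.update (Function.update x i (t * x i)) j (t * x j)) l =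
            if l = j then t * x j else if l = i then t * x i else x l := by
          intro l
          by_cases h3 : l = j
          · rw [if_pos h3, h3, Function.update_self]
          · rw [if_neg h3, Function.update_of_ne h3]
            by_cases h4 : l = i
            · rw [if_pos h4, h4, Function.update_self]
            · rw [if_neg h4, Function.update_of_ne h4]
        refine hr.trans (hred _ i k ?_ ?_ ?_ hik ?_ ?_ ?_)
        · intro l hl
          rw [hyk]
          have h3 : l ≠ j := fun e => hl (e ▸ hmem j hj)
          have h4 : l ≠ i := fun e => hl (e ▸ hmem i hi)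
          rw [if_neg h3, if_neg h4, hx l hl]
        · rw [hr.norm, h1]
        · refine le_trans (Finset.card_le_card ?_) hm
          intro l hl
          rw [Finset.mem_filter] at hl ⊢
          refine ⟨Finset.mem_univ _, ?_⟩
          by_cases h3 : l = j
          · rw [h3]; exact hj
          · by_cases h4 : l = i
            · rw [h4]; exact hi
            · have := hl.2
              rwa [hyk, if_neg h3, if_neg h4] at this
        · rw [hyk, if_neg hij, if_pos rfl]
          exact mul_ne_zero ht hi
        · rw [hyk, if_neg (Ne.symm hjk), if_neg (Ne.symm hik)]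
          exact hk
        · rw [hyk, hyk, if_neg hij, if_pos rfl, if_neg (Ne.symm hjk), if_neg (Ne.symm hik),
            star_mul', hts]
          intro h3
          apply htt
          have h4 : (t * t - 1) * (star (x i) * x i) = 0 := by
            linear_combination h3 - hIK
          rcases mul_eq_zero.1 h4 with h5 | h5
          · exact sub_eq_zero.1 h5
          · exact absurd h5 (nrm_ne hi)

/-- induction over the set of the coordinates which are not fixed -/
theorem gen_aux (hF : Fld K) {H : Subgroup (unitaryGroup ι K)} (hH : HasCoord H)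
    (hn : ∀ s : ι, ∃ s', s' ≠ s) :
    ∀ (m : ℕ) (S : Finset ι), S.card ≤ m → ∀ g : unitaryGroup ι K, g.1.det = 1 →
      (∀ k, k ∉ S → g.1 *ᵥ (Pi.single k 1) = Pi.single k 1) → g ∈ H := by
  intro m
  induction m with
  | zero =>
    intro S hS g _ hf
    have h0 : S = ∅ := Finset.card_eq_zero.1 (Nat.le_zero.1 hS)
    have : g = 1 := by
      apply Subtype.ext
      apply Matrix.ext_of_mulVec_single
      intro k
      rw [hf k (by rw [h0]; exact Finset.notMem_empty _)]
      show _ = (1 : Matrix ι ι K) *ᵥ _
      rw [one_mulVec]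
    rw [this]
    exact H.one_mem
  | succ m ih =>
    intro S hS g hd hf
    by_cases h2 : ∃ s ∈ S, ∃ s' ∈ S, s' ≠ s
    · obtain ⟨s, hs, hs'⟩ := h2
      have hg' : g.1 * star g.1 = 1 := mem_unitaryGroup_iff.1 g.2
      have hg : star g.1 * g.1 = 1 := mem_unitaryGroup_iff'.1 g.2
      have hsup : ∀ k, k ∉ S → (g.1 *ᵥ (Pi.single s 1)) k = 0 := by
        intro k hk
        have h3 := hf k hk
        have h4 : (star g.1) *ᵥ (Pi.single k (1 : K)) = Pi.single k 1 := by
          conv_lhs => rw [← h3]
          rw [mulVec_mulVec, hg, one_mulVec]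
        have h5 := congrFun h4 s
        rw [mulVec_single_one] at h5
        rw [mulVec_single_one]
        have hks : k ≠ s := fun e => hk (e ▸ hs)
        rw [Pi.single_eq_of_ne (Ne.symm hks)] at h5
        simp only [Matrix.col_apply, star_apply, star_eq_zero] at h5 ⊢
        exact h5
      have hunit : star (g.1 *ᵥ (Pi.single s (1 : K))) ⬝ᵥ (g.1 *ᵥ (Pi.single s 1)) = 1 := by
        rw [star_mulVec, ← dotProduct_mulVec, mulVec_mulVec]
        have : (g.1)ᴴ * g.1 = 1 := hg
        rw [this, one_mulVec]
        simp
      obtain ⟨h, hh, ⟨hhd, hhf⟩, hhs⟩ := trans_aux hF hH hs hs' _ _ hsup hunit le_rfl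
      have hmem : h * g ∈ H := by
        refine ih (S.erase s) ?_ (h * g) ?_ ?_
        · rw [Finset.card_erase_of_mem hs]
          omega
        · show (h.1 * g.1).det = 1
          rw [det_mul, hd, hhd, mul_one]
        · intro k hk
          show (h.1 * g.1) *ᵥ _ = _
          rw [← mulVec_mulVec]
          by_cases hks : k = s
          · rw [hks, hhs]
          · have : k ∉ S := fun h3 => hk (Finset.mem_erase.2 ⟨hks, h3⟩)
            rw [hf k this, hhf k this]
      have := H.mul_mem (H.inv_mem hh) hmem
      rwa [inv_mul_cancel_left] at this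
    · rcases S.eq_empty_or_nonempty with h0 | ⟨s, hs⟩
      · refine ih ∅ (by simp) g hd (fun k _ => hf k (by rw [h0]; exact Finset.notMem_empty _))
      · obtain ⟨s', hss⟩ := hn s
        refine hH s s' (Ne.symm hss) g hd (fun k hk _ => hf k ?_)
        intro h3
        exact h2 ⟨s, hs, k, h3, hk⟩

end Vale.Agent.P240.R2.H257
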