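import Vale.Agent.P240.R2.H257.Cij
import Vale.Agent.P240.R2.H923.Core4

/-!
P240 (helper257), NL3: helper775's statement `StmtAut`, from helper923's core theorem.
-/

set_option autoImplicit false
set_option linter.all false

namespace Vale.Agent.P240.R2.H257

open Matrix Subgroup
open Vale.Agent.P240.R2.AS (GU SU PGU PSU SA mapGU SA_star act)
open Vale.Agent.P240.R2.H923 (IsB IsC CoreHyp dgc pS pS_val pS_surj dgN core)

universe u

section
variable {K : Type u} [Field K] [Fintype K] [StarRing K] {q n : ℕ}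

/-- the core theorem on all of `PSU`, for arbitrary representatives in `GU` -/
theorem core_all (hq : 4 ≤ q) (hK : Nat.card K = q ^ 2) (hs : ∀ x : K, star x = x ^ q)
    (hn : 3 ≤ n) (α : MulAut ↥(PSU K n)) (h : CoreHyp α) :
    ∃ (a : Fin n → K) (τ : SA K), (∀ i, a i * star (a i) = 1) ∧
      ∀ (x : ↥(PSU K n)) (g : GU K n), x.1 = QuotientGroup.mk g →
        (α x).1 = dgc a * QuotientGroup.mk (mapGU τ g) * (dgc a)⁻¹ := by
  obtain ⟨τ, a, ha, hcore⟩ := core hq hK hs hn α h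
  have ha' : ∀ i, a i * star (a i) = 1 := fun i => by rw [mul_comm]; exact ha i
  refine ⟨a, τ, ha', ?_⟩
  intro x g hg
  obtain ⟨g0, rfl⟩ := pS_surj x
  rw [hcore g0]
  have h1 : (QuotientGroup.mk (mapGU τ g) : PGU K n) = QuotientGroup.mk (mapGU τ g0.1) := by
    have h2 : (QuotientGroup.mk g : PGU K n) = QuotientGroup.mk g0.1 := by
      rw [← hg, pS_val]
    exact congrArg (act n τ) h2
  rw [h1, dgc_eq (diag_mem ha')]
  have h3 : (⟨_, diag_mem ha'⟩ : GU K n) = dgN a ha := Subtype.ext rfl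
  rw [h3]
  rfl

/-- automorphisms that fix the classes of `diag(1,...,ζ,...,1)` -/
theorem aut_one (hq : 4 ≤ q) (hK : Nat.card K = q ^ 2) (hs : ∀ x : K, star x = x ^ q)
    (hn : 3 ≤ n) {ζ : K} (hζ : ζ * star ζ = 1) (h1 : ζ ≠ 1) (α : MulAut ↥(PSU K n))
    (H : ∀ k : Fin n, ∃ x : ↥(PSU K n), x.1 = dgc (Function.update 1 k ζ) ∧ α x = x) :
    ∃ (a : Fin n → K) (τ : SA K), (∀ i, a i * star (a i) = 1) ∧
      ∀ (x : ↥(PSU K n)) (g : GU K n), x.1 = QuotientGroup.mk g →
        (α x).1 = dgc a * QuotientGroup.mk (mapGU τ g) * (dgc a)⁻¹ :=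
  core_all hq hK hs hn α (coreHyp_one hn hζ h1 α H)

end

/-- **(B)**: automorphisms of `PSU_n(q)`, `q ≥ 4`, that fix the diagonal classes of exponent `p` -/
theorem stmtAut : H775.Aut.StmtAut.{u} := by
  intro K _ _ _ q hq hF p hp hpq n hn hp2 hp3 f hf
  exact core_all hq hF.card hF.star hn f
    (coreHyp_fixD hp.out hpq (by omega) hF.card hF.star hn hp2 hp3 f hf)

end Vale.Agent.P240.R2.H257
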